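import Vale.Agent.H2.TorusC
import Vale.Agent.H2.TorusMain

/-!
# P007: the composite-degree disproof together with the subfield obstruction

Two statements about `X_n = SL_n(ℤ)\SL_n(ℝ)` in one theorem.

1. For every composite `n ≥ 4` there are totally real number fields `K_i ⊂ ℝ` of degree `n` with
   `|disc K_i| → ∞` and a test function `f ∈ C_c(X_n)` such that `∫ f dm > 0` for every
   `SL_n(ℝ)`-invariant Borel probability measure `m` on `X_n`, while `∫ f dμ = 0` for every Borel
   measure `μ` carried by the packet of the maximal order of `K_i` (for every `i` and every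
   choice of `n` ring homomorphisms `K_i → ℝ`).
2. For `n ≥ 1` and a nonzero `p ∈ ℤ[x]` without integer roots there is a closed subset `C` of
   `X_n` with dense complement which contains every point `Λ_I w a` of every packet of every
   order containing a root `θ` of `p`, together with a nonnegative nonzero test function
   `f ∈ C_c(X_n)` vanishing on `C`: every measure carried by `C` integrates `f` to `0`, every
   finite measure that is positive on nonempty open sets integrates `f` to a positive number.
-/

open MeasureTheory Vale.Agent.H2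

theorem Vale.Agent.Results.P007.A0_DisproofAndObstruction.result :
    (∀ n : ℕ, 4 ≤ n → ¬ n.Prime →
      ∃ (F : ℕ → IntermediateField ℚ ℝ) (_ : ∀ i, NumberField (F i)),
        (∀ i, NumberField.IsTotallyReal (F i)) ∧ (∀ i, Module.finrank ℚ (F i) = n) ∧
        Filter.Tendsto (fun i => |NumberField.discr (F i)|) Filter.atTop Filter.atTop ∧
        ∃ f : LatticeSpace n → ℝ, Continuous f ∧ HasCompactSupport f ∧
          (∀ [MeasurableSpace (LatticeSpace n)] [BorelSpace (LatticeSpace n)]
              (m : Measure (LatticeSpace n)) [IsProbabilityMeasure m],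
              (∀ h : Matrix.SpecialLinearGroup (Fin n) ℝ, Measure.map (rightMul n h) m = m) →
                0 < ∫ x, f x ∂m) ∧
          (∀ (i : ℕ) (σ : Fin n → (F i) →+* ℝ) [MeasurableSpace (LatticeSpace n)]
              [BorelSpace (LatticeSpace n)] (μ : Measure (LatticeSpace n)),
              μ {x | x ∉ packetSet σ} = 0 → ∫ x, f x ∂μ = 0)) ∧
    (∀ n : ℕ, 0 < n → ∀ p : Polynomial ℤ, p ≠ 0 → (∀ k : ℤ, p.eval k ≠ 0) →
      ∃ (C : Set (LatticeSpace n)) (f : LatticeSpace n → ℝ),
        IsClosed C ∧ Dense {x | x ∉ C} ∧
        Continuous f ∧ HasCompactSupport f ∧ (∀ x, 0 ≤ f x) ∧ (∀ x ∈ C, f x = 0) ∧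
        (∃ x, f x ≠ 0) ∧
        (∀ (K : Type) [Field K] (θ : K), Polynomial.aeval θ p = 0 →
          ∀ (σ : Fin n → K →+* ℝ) (I : AddSubgroup K), (∀ x ∈ I, θ * x ∈ I) →
          ∀ (c : ℝ) (w a : Fin n → ℝ) (g : Matrix.SpecialLinearGroup (Fin n) ℝ),
            (Submodule.span ℤ (Set.range g.val.row) : Set (Fin n → ℝ))
              = (fun (x : K) (j : Fin n) => c * σ j x * w j * a j) '' (I : Set K) →
            Quotient.mk (MulAction.orbitRel (intSL n) (Matrix.SpecialLinearGroup (Fin n) ℝ)) g
              ∈ C) ∧
        (∀ [MeasurableSpace (LatticeSpace n)] [BorelSpace (LatticeSpace n)]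
          (μ : Measure (LatticeSpace n)), μ {x | x ∉ C} = 0 → ∫ x, f x ∂μ = 0) ∧
        (∀ [MeasurableSpace (LatticeSpace n)] [BorelSpace (LatticeSpace n)]
          (m : Measure (LatticeSpace n)) [IsFiniteMeasure m],
          (∀ U : Set (LatticeSpace n), IsOpen U → U.Nonempty → 0 < m U) → 0 < ∫ x, f x ∂m)) :=
  ⟨torus_counterexample_of_composite,
    fun n hn p hp hroot => torus_subfield_obstruction n hn p hp hroot⟩
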