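import Vale.Agent.H2.TorusC

/-!
# P007: in every composite degree the packets of suitable maximal orders do not equidistribute

For every composite `n ≥ 4` there are totally real number fields `K_i ⊂ ℝ` of degree `n` with
`|disc K_i| → ∞` and a test function `f ∈ C_c(X_n)`, `X_n = SL_n(ℤ)\SL_n(ℝ)`, such that
`∫ f dm > 0` for every `SL_n(ℝ)`-invariant Borel probability measure `m` on `X_n`, while
`∫ f dμ = 0` for every Borel measure `μ` carried by the packet of the maximal order of `K_i`
(for every `i` and every choice of `n` ring homomorphisms `K_i → ℝ`).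

The fields: write `n = d * m` with `d, m ≥ 2`, let `g(y) = ∏_{k=1}^{d} (y - 4k) - 2`, and for a
prime `q` let `K = ℚ(θ)` where `θ` is a real root of `g_q(f_q(x))`, `g_q(y) = q^d g(y/q)`,
`f_q(x) = ∏_{j<m} (x - 4dqj) + q(2d+2)`. This polynomial is Eisenstein at `2`, has only real
roots, `f_q(θ)/q` is a root of the fixed polynomial `g`, and `q` divides `disc K`.
-/

open MeasureTheory Vale.Agent.H2

theorem Vale.Agent.Results.P007.A_CompositeDegreeDisproof.result :
    ∀ n : ℕ, 4 ≤ n → ¬ n.Prime →
    ∃ (F : ℕ → IntermediateField ℚ ℝ) (_ : ∀ i, NumberField (F i)),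
      (∀ i, NumberField.IsTotallyReal (F i)) ∧ (∀ i, Module.finrank ℚ (F i) = n) ∧
      Filter.Tendsto (fun i => |NumberField.discr (F i)|) Filter.atTop Filter.atTop ∧
      ∃ f : LatticeSpace n → ℝ, Continuous f ∧ HasCompactSupport f ∧
        (∀ [MeasurableSpace (LatticeSpace n)] [BorelSpace (LatticeSpace n)]
            (m : Measure (LatticeSpace n)) [IsProbabilityMeasure m],
            (∀ h : Matrix.SpecialLinearGroup (Fin n) ℝ, Measure.map (rightMul n h) m = m) →
              0 < ∫ x, f x ∂m) ∧
        (∀ (i : ℕ) (σ : Fin n → (F i) →+* ℝ) [MeasurableSpace (LatticeSpace n)]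
            [BorelSpace (LatticeSpace n)] (μ : Measure (LatticeSpace n)),
            μ {x | x ∉ packetSet σ} = 0 → ∫ x, f x ∂μ = 0) :=
  torus_counterexample_of_composite
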