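import Vale.Agent.H2.TorusC

/-!
# P007: in every composite degree the packets of suitable maximal orders miss a fixed open set

The statement of `A_CompositeDegreeDisproof` with three more conclusions about the test
function: for every composite `n ≥ 4` there are totally real number fields `K_i ⊂ ℝ` of degree
`n` with `|disc K_i| → ∞` and `f ∈ C_c(X_n)`, `X_n = SL_n(ℤ)\SL_n(ℝ)`, with

* (i) `∫ f dm > 0` for every `SL_n(ℝ)`-invariant Borel probability measure `m` on `X_n`;
* (ii) `∫ f dμ = 0` for every Borel measure `μ` carried by the packet of the maximal order of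
  `K_i` (for every `i` and every choice of `n` ring homomorphisms `K_i → ℝ`);
* (iii) `f ≥ 0`, `f x > 0` for some `x`, and `f` vanishes at every point of every such packet.

So the nonempty open set `{f > 0}` meets no packet of a maximal order of any `K_i`: the packets
are not dense in `X_n`, whatever measures are put on them.

The proof repeats that of `torus_counterexample_composite` and keeps the three properties of
the test function that `torus_subfield_obstruction` provides.
-/

open Matrix Topology MeasureTheory NumberField Polynomial Vale.Agent.H2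

namespace Vale.Agent.Results.P007.A_PacketsAvoidOpenSet

theorem product_degree (d m : ℕ) (hd : 2 ≤ d) (hm : 2 ≤ m) :
    ∃ (F : ℕ → IntermediateField ℚ ℝ) (_ : ∀ i, NumberField (F i)),
      (∀ i, IsTotallyReal (F i)) ∧ (∀ i, Module.finrank ℚ (F i) = d * m) ∧
      Filter.Tendsto (fun i => |discr (F i)|) Filter.atTop Filter.atTop ∧
      ∃ f : LatticeSpace (d * m) → ℝ, Continuous f ∧ HasCompactSupport f ∧
        (∀ [MeasurableSpace (LatticeSpace (d * m))] [BorelSpace (LatticeSpace (d * m))]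
            (μ : Measure (LatticeSpace (d * m))) [IsProbabilityMeasure μ],
            (∀ h : Matrix.SpecialLinearGroup (Fin (d * m)) ℝ,
              Measure.map (rightMul (d * m) h) μ = μ) → 0 < ∫ x, f x ∂μ) ∧
        (∀ (i : ℕ) (σ : Fin (d * m) → (F i) →+* ℝ) [MeasurableSpace (LatticeSpace (d * m))]
            [BorelSpace (LatticeSpace (d * m))] (μ : Measure (LatticeSpace (d * m))),
            μ {x | x ∉ packetSet σ} = 0 → ∫ x, f x ∂μ = 0) ∧
        (∀ x, 0 ≤ f x) ∧ (∃ x, 0 < f x) ∧
        (∀ (i : ℕ) (σ : Fin (d * m) → (F i) →+* ℝ), ∀ x ∈ packetSet σ, f x = 0) := by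
  obtain ⟨C, f, -, -, hfc, hfs, hf0, hfC, hfne, ha, hb, hc⟩ :=
    torus_subfield_obstruction (d * m) (by positivity) (gP d) (gP_ne_zero d hd)
      (gP_no_int_root d hd)
  have hq : ∀ i : ℕ, ∃ q : ℕ, q.Prime ∧ q ≠ 2 ∧ i ≤ q ∧
      ¬ (q : ℤ) ∣ (gP d).eval (2 * (d : ℤ) + 2) := exists_good_prime d hd
  choose q hq1 hq2 hq3 hq4 using hq
  have hF := fun i => exists_field d m (q i) hd hm (hq1 i) (hq2 i) (hq4 i)
  choose F hNF hTR hfr hdisc β hβ using hF
  have hsub : ∀ (i : ℕ) (σ : Fin (d * m) → (F i) →+* ℝ), packetSet σ ⊆ C := by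
    intro i σ
    have hint : IsIntegral ℤ (β i) :=
      ⟨gP d, gP_monic d (by omega), by rw [← aeval_def]; exact hβ i⟩
    exact packetSet_subset_of_integral_root (gP d) (β i) (hβ i) hint C ha σ
  refine ⟨F, hNF, hTR, hfr, ?_, f, hfc, hfs, ?_, ?_, hf0, ?_, ?_⟩
  · refine Filter.tendsto_atTop_mono (fun i => ?_) tendsto_natCast_atTop_atTop
    have hne : discr (F i) ≠ 0 := discr_ne_zero (F i)
    have h1 : ((q i : ℕ) : ℤ) ≤ |discr (F i)| :=
      Int.le_of_dvd (abs_pos.mpr hne) ((dvd_abs _ _).mpr (hdisc i))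
    have h2 : ((i : ℕ) : ℤ) ≤ ((q i : ℕ) : ℤ) := by exact_mod_cast hq3 i
    exact le_trans h2 h1
  · intro _ _ μ _ hinv
    exact hc μ (measure_pos_of_invariant μ hinv)
  · intro i σ _ _ μ hμ
    refine hb μ (measure_mono_null ?_ hμ)
    intro x hx hxp
    exact hx (hsub i σ hxp)
  · obtain ⟨x, hx⟩ := hfne
    exact ⟨x, lt_of_le_of_ne (hf0 x) (Ne.symm hx)⟩
  · intro i σ x hx
    exact hfC x (hsub i σ hx)

theorem result :
    ∀ n : ℕ, 4 ≤ n → ¬ n.Prime →
    ∃ (F : ℕ → IntermediateField ℚ ℝ) (_ : ∀ i, NumberField (F i)),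
      (∀ i, NumberField.IsTotallyReal (F i)) ∧ (∀ i, Module.finrank ℚ (F i) = n) ∧
      Filter.Tendsto (fun i => |NumberField.discr (F i)|) Filter.atTop Filter.atTop ∧
      ∃ f : LatticeSpace n → ℝ, Continuous f ∧ HasCompactSupport f ∧
        (∀ [MeasurableSpace (LatticeSpace n)] [BorelSpace (LatticeSpace n)]
            (m : Measure (LatticeSpace n)) [IsProbabilityMeasure m],
            (∀ h : Matrix.SpecialLinearGroup (Fin n) ℝ, Measure.map (rightMul n h) m = m) →
              0 < ∫ x, f x ∂m) ∧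
        (∀ (i : ℕ) (σ : Fin n → (F i) →+* ℝ) [MeasurableSpace (LatticeSpace n)]
            [BorelSpace (LatticeSpace n)] (μ : Measure (LatticeSpace n)),
            μ {x | x ∉ packetSet σ} = 0 → ∫ x, f x ∂μ = 0) ∧
        (∀ x, 0 ≤ f x) ∧ (∃ x, 0 < f x) ∧
        (∀ (i : ℕ) (σ : Fin n → (F i) →+* ℝ), ∀ x ∈ packetSet σ, f x = 0) := by
  intro n hn hcomp
  obtain ⟨d, ⟨m, rfl⟩, hd, hlt⟩ := Nat.exists_dvd_of_not_prime2 (by omega) hcomp
  have hm : 2 ≤ m := by
    by_contra h
    have : m ≤ 1 := by omega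
    have : d * m ≤ d * 1 := Nat.mul_le_mul_left d this
    omega
  exact product_degree d m hd hm

end Vale.Agent.Results.P007.A_PacketsAvoidOpenSet
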