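import Vale.Agent.H2.TorusC

/-!
# P007: in every composite degree no subsequence of the packet measures converges to `m_n`

The statement of `A_CompositeDegreeDisproof` with one more conclusion, in the words of the
problem: for every composite `n ≥ 4` there are totally real number fields `K_i ⊂ ℝ` of degree
`n` with `|disc K_i| → ∞` and a test function `f ∈ C_c(X_n)`, `X_n = SL_n(ℤ)\SL_n(ℝ)`, with

* (i) `∫ f dm > 0` for every `SL_n(ℝ)`-invariant Borel probability measure `m` on `X_n`;
* (ii) `∫ f dμ = 0` for every Borel measure `μ` carried by the packet of the maximal order of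
  `K_i` (for every `i` and every choice of `n` ring homomorphisms `K_i → ℝ`);
* (iii) hence, for every such `m` and every sequence of Borel measures `μ_i`, the `i`-th one
  carried by a packet of the maximal order of `K_i`, no subsequence of the numbers `∫ f dμ_i`
  converges to `∫ f dm`: no subsequence of the packet measures converges weakly to `m`.

Conclusion (iii) is derived here from (i) and (ii), which are `torus_counterexample_of_composite`.
-/

open MeasureTheory Vale.Agent.H2

theorem Vale.Agent.Results.P007.A_PacketsDoNotConverge.result :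
    ∀ n : ℕ, 4 ≤ n → ¬ n.Prime →
    ∃ (F : ℕ → IntermediateField ℚ ℝ) (_ : ∀ i, NumberField (F i)),
      (∀ i, NumberField.IsTotallyReal (F i)) ∧ (∀ i, Module.finrank ℚ (F i) = n) ∧
      Filter.Tendsto (fun i => |NumberField.discr (F i)|) Filter.atTop Filter.atTop ∧
      ∃ f : LatticeSpace n → ℝ, Continuous f ∧ HasCompactSupport f ∧
        (∀ [MeasurableSpace (LatticeSpace n)] [BorelSpace (LatticeSpace n)]
            (m : Measure (LatticeSpace n)) [IsProbabilityMeasure m],
            (∀ h : Matrix.SpecialLinearGroup (Fin n) ℝ, Measure.map (rightMul n h) m = m) →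
              0 < ∫ x, f x ∂m) ∧
        (∀ (i : ℕ) (σ : Fin n → (F i) →+* ℝ) [MeasurableSpace (LatticeSpace n)]
            [BorelSpace (LatticeSpace n)] (μ : Measure (LatticeSpace n)),
            μ {x | x ∉ packetSet σ} = 0 → ∫ x, f x ∂μ = 0) ∧
        (∀ [MeasurableSpace (LatticeSpace n)] [BorelSpace (LatticeSpace n)]
            (m : Measure (LatticeSpace n)) [IsProbabilityMeasure m]
            (σ : ∀ i : ℕ, Fin n → (F i) →+* ℝ) (μ : ℕ → Measure (LatticeSpace n)),
            (∀ h : Matrix.SpecialLinearGroup (Fin n) ℝ, Measure.map (rightMul n h) m = m) →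
            (∀ i : ℕ, μ i {x | x ∉ packetSet (σ i)} = 0) →
            ∀ s : ℕ → ℕ, StrictMono s →
              ¬ Filter.Tendsto (fun j : ℕ => ∫ x, f x ∂(μ (s j))) Filter.atTop
                (nhds (∫ x, f x ∂m))) := by
  intro n hn hp
  obtain ⟨F, hF, htr, hdeg, hdisc, f, hc, hcs, hi, hii⟩ :=
    torus_counterexample_of_composite n hn hp
  refine ⟨F, hF, htr, hdeg, hdisc, f, hc, hcs, hi, hii, ?_⟩
  intro _ _ m _ σ μ hm hμ s _ hlim
  have h0 : ∀ j : ℕ, ∫ x, f x ∂(μ (s j)) = 0 :=
    fun j => hii (s j) (σ (s j)) (μ (s j)) (hμ (s j))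
  have hpos : 0 < ∫ x, f x ∂m := hi m hm
  have hlim0 : Filter.Tendsto (fun j : ℕ => ∫ x, f x ∂(μ (s j))) Filter.atTop (nhds 0) := by
    simp only [h0]
    exact tendsto_const_nhds
  have heq := tendsto_nhds_unique hlim hlim0
  linarith
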