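import Vale.Agent.H2.TorusMain

/-!
# P007: the subfield obstruction to equidistribution of torus packets

Fix `n ≥ 1` and a nonzero `p ∈ ℤ[x]` without integer roots. There is a closed subset `C` of
`X_n = SL_n(ℤ)\SL_n(ℝ)` with dense complement which contains every point `Λ_I w a` of every
packet of every order containing a root `θ` of `p`, together with a nonnegative nonzero
test function `f ∈ C_c(X_n)` vanishing on `C`. Consequently every packet measure of such an
order integrates `f` to `0`, whereas every fully supported finite measure (such as the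
invariant probability measure `m_n`) integrates `f` to a positive number.
-/

open MeasureTheory Vale.Agent.H2

theorem Vale.Agent.Results.P007.A_SubfieldObstruction.result
    (n : ℕ) (hn : 0 < n) (p : Polynomial ℤ) (hp : p ≠ 0) (hroot : ∀ k : ℤ, p.eval k ≠ 0) :
    ∃ (C : Set (LatticeSpace n)) (f : LatticeSpace n → ℝ),
      IsClosed C ∧ Dense {x | x ∉ C} ∧
      Continuous f ∧ HasCompactSupport f ∧ (∀ x, 0 ≤ f x) ∧ (∀ x ∈ C, f x = 0) ∧
      (∃ x, f x ≠ 0) ∧
      (∀ (K : Type) [Field K] (θ : K), Polynomial.aeval θ p = 0 →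
        ∀ (σ : Fin n → K →+* ℝ) (I : AddSubgroup K), (∀ x ∈ I, θ * x ∈ I) →
        ∀ (c : ℝ) (w a : Fin n → ℝ) (g : Matrix.SpecialLinearGroup (Fin n) ℝ),
          (Submodule.span ℤ (Set.range g.val.row) : Set (Fin n → ℝ))
            = (fun (x : K) (j : Fin n) => c * σ j x * w j * a j) '' (I : Set K) →
          Quotient.mk (MulAction.orbitRel (intSL n) (Matrix.SpecialLinearGroup (Fin n) ℝ)) g ∈ C) ∧
      (∀ [MeasurableSpace (LatticeSpace n)] [BorelSpace (LatticeSpace n)]
        (μ : Measure (LatticeSpace n)), μ {x | x ∉ C} = 0 → ∫ x, f x ∂μ = 0) ∧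
      (∀ [MeasurableSpace (LatticeSpace n)] [BorelSpace (LatticeSpace n)]
        (m : Measure (LatticeSpace n)) [IsFiniteMeasure m],
        (∀ U : Set (LatticeSpace n), IsOpen U → U.Nonempty → 0 < m U) → 0 < ∫ x, f x ∂m) :=
  torus_subfield_obstruction n hn p hp hroot
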